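import Vale.Agent.P372.StabF.KDefs

open Matrix Kronecker
open scoped ComplexOrder

namespace Vale.Agent.P372

/-- `v` is unitary on the range of the orthogonal projection `p`, zero on its complement, and a
multiple of `p` or of trace zero. -/
def ScalarOrTracelessOn {X : Type} [Fintype X] [DecidableEq X] (p v : Matrix X X ℂ) : Prop :=
  pᴴ = p ∧ p * p = p ∧ vᴴ * v = p ∧ v * vᴴ = p ∧ (v.trace = 0 ∨ ∃ c : ℂ, v = c • p)

/-- `p` is the projection onto a product `V ⊗ W` of subspaces, and `u = v ⊗ w` with `v` unitary on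
`V`, `w` unitary on `W`, each scalar or of trace zero. -/
def LocalPairOn {X Y : Type} [Fintype X] [DecidableEq X] [Fintype Y] [DecidableEq Y]
    (p u : Matrix (X × Y) (X × Y) ℂ) : Prop :=
  ∃ (a v : Matrix X X ℂ) (b w : Matrix Y Y ℂ), ScalarOrTracelessOn a v ∧
    ScalarOrTracelessOn b w ∧ p = a ⊗ₖ b ∧ u = v ⊗ₖ w

/-- Codes on subspaces: orthogonal projections `Q` for which there are operators `p i` such that `Q`
is a linear combination of products `h = ⨂ i, u i` with `P (p i) (u i)` for all `i`, and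
`h Q = χ Q` with a number `χ`. In the applications `p i` is the projection onto a subspace of the
`i`-th system and `u i` is unitary on it. -/
def SubCodeProj {X ι : Type} [Fintype X] [DecidableEq X] [Fintype ι] [DecidableEq ι]
    (P : Matrix X X ℂ → Matrix X X ℂ → Prop) (Q : Matrix (ι → X) (ι → X) ℂ) : Prop :=
  Qᴴ = Q ∧ Q * Q = Q ∧ ∃ p : ι → Matrix X X ℂ, Q ∈ Submodule.span ℂ
    {h | ∃ u : ι → Matrix X X ℂ, (∀ i, P (p i) (u i)) ∧
      (∀ x y, h x y = ∏ i, u i (x i) (y i)) ∧ ∃ χ : ℂ, h * Q = χ • Q}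

/-- The operator `R` on `n` copies is a product of positive operators `Q i` on the blocks
`{j | π j = i}` of a partition of the `n` copies, such that
* the block `i = 0` has at most `M` copies;
* every other block has at most `N` copies, or `Q i` is a code on subspaces, or `i ∈ J` and `Q i` is
  locally a product, where `J` has at most `S` elements (`α`, `κ` play no role if `S = 0`). -/
def SubBlocks {X : Type} [Fintype X] [DecidableEq X] (P : Matrix X X ℂ → Matrix X X ℂ → Prop)
    {n : ℕ} (N M S : ℕ) (α κ : ℝ) (R : Matrix (Fin n → X) (Fin n → X) ℂ) : Prop :=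
  ∃ (m : ℕ) (π : Fin n → Fin (m + 1)) (J : Finset (Fin (m + 1)))
    (Q : ∀ i, Matrix ({j // π j = i} → X) ({j // π j = i} → X) ℂ),
    Fintype.card {j // π j = 0} ≤ M ∧ J.card ≤ S ∧
      (∀ i, i ≠ 0 → Fintype.card {j // π j = i} ≤ N ∨ SubCodeProj P (Q i) ∨
        (i ∈ J ∧ LocallyProduct α κ (Q i))) ∧
      (∀ i, (Q i).PosSemidef) ∧ ∀ p q, R p q = ∏ i, Q i (fun j => p j) (fun j => q j)

/-- `R ≤ G ≤ c R` for such a product `R`. -/
def NearSubBlocks {X : Type} [Fintype X] [DecidableEq X] (P : Matrix X X ℂ → Matrix X X ℂ → Prop)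
    {n : ℕ} (N M S : ℕ) (α κ c : ℝ) (G : Matrix (Fin n → X) (Fin n → X) ℂ) : Prop :=
  ∃ R, SubBlocks P N M S α κ R ∧ (G - R).PosSemidef ∧ ((c : ℂ) • R - G).PosSemidef

/-- The total effect `F` of Alice or the total effect `G` of Bob is at most a product `R` of codes
on subspaces on any number of copies and of positive operators on at most `N` copies, and if it is
replaced by `R` then the probability `tr (F ⊗ G) ρ^{⊗ n}` becomes at most `γ`. -/
def DominatedSub {A B : Type} [Fintype A] [DecidableEq A] [Fintype B] [DecidableEq B]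
    (PA : Matrix A A ℂ → Matrix A A ℂ → Prop) (PB : Matrix B B ℂ → Matrix B B ℂ → Prop) {n : ℕ}
    (N : ℕ) (ρ : Matrix (A × B) (A × B) ℂ) (F : Matrix (Fin n → A) (Fin n → A) ℂ)
    (G : Matrix (Fin n → B) (Fin n → B) ℂ) (γ : ℝ) : Prop :=
  (∃ R, SubBlocks PA N 0 0 0 0 R ∧ (R - F).PosSemidef ∧ ((R ⊗ₖ G) * tpow n ρ).trace.re ≤ γ) ∨
    ∃ R, SubBlocks PB N 0 0 0 0 R ∧ (R - G).PosSemidef ∧ ((F ⊗ₖ R) * tpow n ρ).trace.re ≤ γ

/-- `SubLOCC P N K C n W A T f g`: a protocol that is run after Bob has applied the Kraus operator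
`W` to his `n` systems.  In a first phase Alice and Bob apply instruments and announce the results,
in any order and adaptively; when this phase ends, Bob's accumulated Kraus operator `W` has a
product of codes on subspaces (on any number of systems) and of positive operators on at most `N`
systems as effect `Wᴴ W`.  In the second phase they run any protocol in which, for every reply
strategy of Alice, there are at most `C` different sequences of announcements of Bob. -/
inductive SubLOCC {X : Type} [Fintype X] [DecidableEq X] (P : Matrix X X ℂ → Matrix X X ℂ → Prop)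
    (N : ℕ) (K : Type) [Fintype K] (C n : ℕ) :
    (W : Matrix (Fin n → X) (Fin n → X) ℂ) → (A T : Type) → (T → K → Matrix A A ℂ) →
      (T → K → Matrix (Fin n → X) (Fin n → X) ℂ) → Prop
  | free {A T : Type} (W : Matrix (Fin n → X) (Fin n → X) ℂ) (hW : SubBlocks P N 0 0 0 0 (Wᴴ * W))
      (f : T → K → Matrix A A ℂ) (g : T → K → Matrix (Fin n → X) (Fin n → X) ℂ)
      (h : LOCCm K C A (Fin n → X) T f g) : SubLOCC P N K C n W A T f g
  | alice {A : Type} [DecidableEq A] (W : Matrix (Fin n → X) (Fin n → X) ℂ) (A' M R : Type)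
      [Fintype A'] [Fintype M] [Fintype R] (V : M → R → Matrix A' A ℂ)
      (hV : ∑ m, ∑ r, (V m r)ᴴ * V m r = 1) (T : M → Type)
      (f : ∀ m, T m → K → Matrix A' A' ℂ) (g : ∀ m, T m → K → Matrix (Fin n → X) (Fin n → X) ℂ)
      (h : ∀ m, SubLOCC P N K C n W A' (T m) (f m) (g m)) :
      SubLOCC P N K C n W A (Σ m, T m) (fun t k => ∑ r, (V t.1 r)ᴴ * f t.1 t.2 k * V t.1 r)
        (fun t k => g t.1 t.2 k)
  | bob {A : Type} (W : Matrix (Fin n → X) (Fin n → X) ℂ) (M : Type) [Fintype M]
      (V : M → Matrix (Fin n → X) (Fin n → X) ℂ) (hV : ∑ m, (V m)ᴴ * V m = 1) (T : M → Type)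
      (f : ∀ m, T m → K → Matrix A A ℂ) (g : ∀ m, T m → K → Matrix (Fin n → X) (Fin n → X) ℂ)
      (h : ∀ m, SubLOCC P N K C n (V m * W) A (T m) (f m) (g m)) :
      SubLOCC P N K C n W A (Σ m, T m) (fun t k => f t.1 t.2 k)
        (fun t k => (V t.1)ᴴ * g t.1 t.2 k * V t.1)

/-- The bounds for a state `ρ` with eigenvalues between `lo` and `hi` (only `hi / lo` matters), for
all purifications, all numbers `n` of copies and all protocols for `ℓ` key bits with error `ε`:
* if for every transcript the total effect of one party is, up to the factor `c`, a product of codes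
  on subspaces on any number of copies, positive operators on at most `N` copies, one positive
  operator on at most `M` copies and at most `S` locally product operators on any number of copies;
* if for every transcript the total effect of one party is at most a product of codes on subspaces
  on any number of copies and positive operators on at most `N` copies;
* if the protocol is as in `SubLOCC`, or so with the parties exchanged. -/
def SubBounds {A B : Type} [Fintype A] [DecidableEq A] [Fintype B] [DecidableEq B]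
    (PA : Matrix A A ℂ → Matrix A A ℂ → Prop) (PB : Matrix B B ℂ → Matrix B B ℂ → Prop)
    (ρ : Matrix (A × B) (A × B) ℂ) (lo hi : ℝ) : Prop :=
  ∀ (E : Type) [Fintype E] [DecidableEq E] (Ψ : Matrix (A × B) E ℂ), Ψ * Ψᴴ = ρ →
    ∀ (n ℓ : ℕ) (T : Type) [Fintype T]
      (f : T → (Fin ℓ → Bool) → Matrix (Fin n → A) (Fin n → A) ℂ)
      (g : T → (Fin ℓ → Bool) → Matrix (Fin n → B) (Fin n → B) ℂ) (ε : ℝ),
      KeyError f g (copies n Ψ) ε →
      (LOCC (Fin ℓ → Bool) (Fin n → A) (Fin n → B) T f g →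
        (∀ (N M S : ℕ) (α κ c : ℝ), hi ^ N ≤ 2 * lo ^ N → (S = 0 ∨ 8 * (hi - lo) ≤ α * lo) →
          1 ≤ κ → 0 < c →
          (∀ t, NearSubBlocks PA N M S α κ c (∑ k, f t k) ∨
            NearSubBlocks PB N M S α κ c (∑ k, g t k)) →
          1 - ε ≤ c * (hi / lo) ^ M * (3 * κ ^ 2) ^ S * ((2 ^ ℓ)⁻¹ + ε)) ∧
        ∀ (N K : ℕ) (γ : T → ℝ), 0 < K → K * hi ≤ (K + 1) * lo →
          K * hi ^ N ≤ (K + 1) * lo ^ N →
          (∀ t, DominatedSub PA PB N ρ (∑ k, f t k) (∑ k, g t k) (γ t)) →
          1 - ε ≤ (2 ^ ℓ)⁻¹ + ε + (∑ t, γ t) / (K + 1)) ∧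
      ∀ N K C : ℕ, 0 < K → K * hi ≤ (K + 1) * lo → K * hi ^ N ≤ (K + 1) * lo ^ N →
        SubLOCC PB N (Fin ℓ → Bool) C n 1 (Fin n → A) T f g ∨
          SubLOCC PA N (Fin ℓ → Bool) C n 1 (Fin n → B) T g f →
        1 - ε ≤ (2 ^ ℓ)⁻¹ + ε + C / (K + 1)

end Vale.Agent.P372
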