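import Vale.Agent.P372.StabG.Site
import Vale.Agent.P372.H795.Blocks3

open Matrix Kronecker
open scoped ComplexOrder MatrixOrder

set_option linter.unusedSectionVars false

namespace Vale.Agent.P372

namespace StabG

open BF (cop cop_low IsExt)
open StabF

variable {A B : Type} [Fintype A] [DecidableEq A] [Fintype B] [DecidableEq B]

/-- Codes on subspaces: `(K + 1)`-fold extensions. -/
theorem extBlock_sub {K : ℕ} (hK : 0 < K) {ι : Type} [Fintype ι] [DecidableEq ι]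
    {ρ : Matrix (A × B) (A × B) ℂ} {lo : ℝ} (hlo : 0 < lo) (h1 : (ρ - (lo : ℂ) • 1).PosSemidef)
    (h2 : ((((K + 1) * lo : ℝ) : ℂ) • 1 - ((K : ℝ) : ℂ) • ρ).PosSemidef) {b : Bool}
    {P : Matrix B B ℂ → Matrix B B ℂ → Prop} (hP : CompOn b ρ P)
    {Q : Matrix (ι → B) (ι → B) ℂ} (hQ : SubCodeProj P Q) : ExtBlock K ρ Q := by
  obtain ⟨S, hS⟩ : ∃ S, S = ρ - (lo : ℂ) • 1 := ⟨_, rfl⟩
  have hSp : S.PosSemidef := by rw [hS]; exact h1
  have hS' : ((lo : ℂ) • 1 - (K : ℂ) • S).PosSemidef := by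
    have e : (lo : ℂ) • 1 - (K : ℂ) • S = (((K + 1) * lo : ℝ) : ℂ) • 1 - ((K : ℝ) : ℂ) • ρ := by
      rw [hS, smul_sub, smul_smul]
      push_cast
      rw [add_mul, add_smul, one_mul]
      abel
    rw [e]
    exact h2
  have hPS : CompOn b S P := by
    rw [hS]
    exact hP.shift lo
  obtain ⟨Ω, hΩ, hΩ1⟩ := exists_extK hK hSp hlo.le hS' Q (sub_comm (α := lo) hPS hQ)
  have hsum : ∑ τ : ι → Bool, flag S lo τ = BF.cop ι ρ := by
    rw [sum_flag]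
    have e : (lo : ℂ) • 1 + S = ρ := by
      rw [hS]
      abel
    rw [e]
    rfl
  rw [hsum] at hΩ1
  exact ⟨Q, 1, hQ.1, hQ.2.1, PosSemidef.one, Matrix.mul_one _, Matrix.one_mul _,
    extS_of_mgk hΩ hΩ1⟩

/-- Codes on subspaces: extensions. -/
theorem sub_ext {ι : Type} [Fintype ι] [DecidableEq ι] {ρ : Matrix (A × B) (A × B) ℂ} {lo : ℝ}
    (hlo : 0 < lo) (h1 : (ρ - (lo : ℂ) • 1).PosSemidef)
    (h2 : (((2 * lo : ℝ) : ℂ) • 1 - ρ).PosSemidef)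
    {b : Bool} {P : Matrix B B ℂ → Matrix B B ℂ → Prop} (hP : CompOn b ρ P)
    {Q : Matrix (ι → B) (ι → B) ℂ} (hQ : SubCodeProj P Q) (hQ0 : Q.trace ≠ 0) :
    ∃ K, IsExt (cop ι ρ) Q K := by
  have hS' : ((lo : ℂ) • 1 - (ρ - (lo : ℂ) • 1)).PosSemidef := by
    have e : (lo : ℂ) • 1 - (ρ - (lo : ℂ) • (1 : Matrix (A × B) (A × B) ℂ)) =
        ((2 * lo : ℝ) : ℂ) • 1 - ρ := by
      rw [Complex.ofReal_mul, Complex.ofReal_ofNat, two_mul, add_smul]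
      abel
    rw [e]
    exact h2
  obtain ⟨Ω, hΩ, m1, m2⟩ := exists_ext h1 hlo.le hS' Q (sub_comm (hP.shift lo) hQ)
  obtain ⟨hQh, hQQ, -⟩ := hQ
  have hcop : (∑ τ : ι → Bool, flag (ρ - (lo : ℂ) • 1) lo τ) = cop ι ρ := by
    have e : (lo : ℂ) • (1 : Matrix (A × B) (A × B) ℂ) + (ρ - (lo : ℂ) • 1) = ρ := by abel
    rw [sum_flag, e]
    rfl
  rw [hcop] at m1 m2
  have hQp : Q.PosSemidef := by
    have h3 := posSemidef_conjTranspose_mul_self Q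
    rwa [hQh, hQQ] at h3
  obtain ⟨τ, hτ⟩ : ∃ τ : ℝ, Q.trace = (τ : ℂ) := ⟨Q.trace.re, by
    have := hQp.trace_nonneg
    rw [Complex.le_def] at this
    apply Complex.ext
    · simp
    · simpa using this.2.symm⟩
  have hτ0 : 0 < τ := by
    have h3 := hQp.trace_nonneg
    rw [hτ] at h3 hQ0
    have h4 : 0 ≤ τ := by exact_mod_cast h3
    have h5 : τ ≠ 0 := by exact_mod_cast hQ0
    exact lt_of_le_of_ne h4 (Ne.symm h5)
  have hftQ : ft Q (cop ι ρ) = H795.onB Q * cop ι ρ * H795.onB Q := by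
    have e : (H795.onB Q : Matrix ((ι → A) × (ι → B)) ((ι → A) × (ι → B)) ℂ)ᴴ =
        H795.onB Q := by rw [H795.onB_conj, hQh]
    rw [ft_eq]
    show H795.onB Q * cop ι ρ * (H795.onB Q)ᴴ = _
    rw [e]
  have t1 : H795.t3 Ω = H795.onB Q * cop ι ρ * H795.onB Q := by
    rw [← hftQ]
    ext p q
    exact m1 p.1 p.2 q.1 q.2
  have t2 : H795.t3 (Ω.submatrix H795.sw H795.sw) = H795.onB Q * cop ι ρ * H795.onB Q := by
    rw [← hftQ]
    ext p q
    exact m2 p.1 p.2 q.1 q.2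
  obtain ⟨Ω', hΩ'⟩ : ∃ Ω', Ω' = ((1 / 2 : ℝ) : ℂ) • (Ω + Ω.submatrix H795.sw H795.sw) := ⟨_, rfl⟩
  have p1 : Ω'.PosSemidef := by
    rw [hΩ']
    exact (hΩ.add (hΩ.submatrix H795.sw)).smul (by
      rw [Complex.zero_le_real]
      norm_num)
  have p2 : Ω'.submatrix H795.sw H795.sw = Ω' := by
    rw [hΩ']
    ext p q
    simp only [submatrix_apply, Matrix.smul_apply, Matrix.add_apply]
    rw [add_comm]
    rfl
  have p3 : H795.t3 Ω' = H795.onB Q * cop ι ρ * H795.onB Q := by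
    rw [hΩ', H795.t3_smul, H795.t3_add, t1, t2, ← two_smul ℂ, smul_smul]
    have : (((1 / 2 : ℝ) : ℂ) * 2) = 1 := by
      push_cast
      norm_num
    rw [this, one_smul]
  refine H795.lift (lo := lo ^ Fintype.card ι) (pow_pos hlo _) (cop_low ι hlo.le h1) hQh hQQ
    hτ0 hτ p1 p2 (H795.supp p1 p2 hQh hQQ p3) p3

end StabG

end Vale.Agent.P372
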