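import Vale.Agent.P372.StabG.Ext

open Matrix Kronecker
open scoped ComplexOrder MatrixOrder

set_option linter.unusedSectionVars false

namespace Vale.Agent.P372

namespace StabG

open BF H795

variable {A B E F : Type} [Fintype A] [DecidableEq A] [Fintype B] [DecidableEq B]
  [Fintype E] [DecidableEq E] [Fintype F] [DecidableEq F]

/-- Extensions relative to the filters of the class. -/
theorem ext_near {n N M S : ℕ} {c α κ : ℝ} {ρ : Matrix (A × B) (A × B) ℂ} {lo hi : ℝ}
    (hlo : 0 < lo) (hlohi : lo ≤ hi) (hc : 0 < c) (h1 : (ρ - (lo : ℂ) • 1).PosSemidef)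
    (h2 : ((hi : ℂ) • 1 - ρ).PosSemidef) (h12 : hi ≤ 2 * lo) (hN : hi ^ N ≤ 2 * lo ^ N)
    (hκ : 1 ≤ κ) (hα : S = 0 ∨ 8 * (hi / lo - 1) ≤ α)
    {b : Bool} {P : Matrix B B ℂ → Matrix B B ℂ → Prop} (hP : CompOn b ρ P)
    {G : Matrix (Fin n → B) (Fin n → B) ℂ} (hG0 : G.PosSemidef)
    (hG : NearSubBlocks P N M S α κ c G) :
    G = 0 ∨ ∃ L, IsExtK (c * ((hi / lo) ^ M * (3 * κ ^ 2) ^ S)) (cop (Fin n) ρ) G L := by
  obtain ⟨R, ⟨m, π, J, Q, hc0, hJ, hcN, hQ, hR⟩, hGR, hRG⟩ := hG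
  have hρ : ρ.PosSemidef := by
    have h4 : ρ = (ρ - (lo : ℂ) • 1) + (lo : ℂ) • (1 : Matrix _ _ ℂ) := by abel
    rw [h4]
    exact h1.add (PosSemidef.one.smul (by exact_mod_cast hlo.le))
  have hhl : 1 ≤ hi / lo := (one_le_div hlo).mpr hlohi
  have hk3 : 1 ≤ 3 * κ ^ 2 := by nlinarith
  by_cases h0 : ∃ i, (Q i).trace = 0
  · left
    obtain ⟨i, hi⟩ := h0
    have hQi : Q i = 0 := (hQ i).trace_eq_zero_iff.mp hi
    have hP0 : R = 0 := by
      ext p q
      rw [hR, Matrix.zero_apply]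
      exact Finset.prod_eq_zero (Finset.mem_univ i) (by rw [hQi, Matrix.zero_apply])
    rw [hP0, smul_zero, zero_sub] at hRG
    have h3 := hRG.trace_nonneg
    have h4 := hG0.trace_nonneg
    rw [trace_neg] at h3
    exact hG0.trace_eq_zero_iff.mp (le_antisymm (neg_nonneg.mp h3) h4)
  · right
    push Not at h0
    have hext : ∀ i, ∃ K, IsExtK ((if i = 0 then (hi / lo) ^ M else 1) *
        (if i ∈ J then 3 * κ ^ 2 else 1)) (cop {j // π j = i} ρ) (Q i) K := by
      intro i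
      have hJ1 : 1 ≤ (if i ∈ J then 3 * κ ^ 2 else 1) := by
        split_ifs
        · exact hk3
        · exact le_rfl
      by_cases hi0 : i = 0
      · subst hi0
        obtain ⟨K, hK⟩ := free_ext hlo hlohi h1 h2 hc0 (hQ 0) (h0 0)
        refine ⟨K, extK_mono hK (hQ 0) ?_⟩
        rw [if_pos rfl]
        exact le_mul_of_one_le_right (pow_nonneg (zero_le_one.trans hhl) M) hJ1
      · rw [if_neg hi0, one_mul]
        rcases hcN i hi0 with h3 | h3 | ⟨h3, h4⟩
        · obtain ⟨K, hK⟩ := small_ext hlo hlohi h1 h2 hN h3 (hQ i) (h0 i)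
          exact ⟨K, extK_mono (ext_toK hK) (hQ i) hJ1⟩
        · obtain ⟨K, hK⟩ := sub_ext hlo h1 (by
            have h8 : (((2 * lo : ℝ) : ℂ) • 1 - ρ) = ((hi : ℂ) • 1 - ρ) +
                (((2 * lo - hi : ℝ) : ℂ) • (1 : Matrix _ _ ℂ)) := by
              rw [Complex.ofReal_sub, sub_smul]
              abel
            rw [h8]
            exact h2.add (PosSemidef.one.smul (by exact_mod_cast sub_nonneg.mpr h12))) hP h3 (h0 i)
          exact ⟨K, extK_mono (ext_toK hK) (hQ i) hJ1⟩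
        · rw [if_pos h3]
          have hS : 8 * (hi / lo - 1) ≤ α := by
            rcases hα with h5 | h5
            · exfalso
              have h6 := Finset.card_pos.mpr ⟨i, h3⟩
              omega
            · exact h5
          rcases loc_ext hlo hlohi h1 h2 h12 hκ hS (hQ i) h4 with h5 | h5
          · exact absurd (by rw [h5]; simp) (h0 i)
          · exact h5
    have hpos : ∀ i, (cop {j // π j = i} ρ).PosSemidef := fun i =>
      (piD_posSemidef (X := fun _ : {j // π j = i} => ρ) fun _ => hρ).submatrix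
        (fun (p : ({j // π j = i} → A) × ({j // π j = i} → B)) (j : {j // π j = i}) =>
          (p.1 j, p.2 j))
    obtain ⟨K, hK⟩ := extK_blocks π hpos hQ hext hR
    have hprod : ∏ i : Fin (m + 1), ((if i = 0 then (hi / lo) ^ M else 1) *
        (if i ∈ J then 3 * κ ^ 2 else 1)) ≤ (hi / lo) ^ M * (3 * κ ^ 2) ^ S := by
      rw [Finset.prod_mul_distrib, Finset.prod_ite_eq', if_pos (Finset.mem_univ 0),
        Finset.prod_ite_mem, Finset.univ_inter, Finset.prod_const]
      exact mul_le_mul_of_nonneg_left (pow_le_pow_right₀ hk3 hJ)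
        (pow_nonneg (zero_le_one.trans hhl) M)
    have hR0 : R.PosSemidef := by
      have h3 := (piD_posSemidef (X := Q) hQ).submatrix
        (fun (p : Fin n → B) (i : Fin (m + 1)) => (fun j => p j : {j // π j = i} → B))
      refine (congrArg Matrix.PosSemidef ?_).mp h3
      ext p q
      rw [hR]
      rfl
    have hK' := extK_mono hK hR0 hprod
    rw [← cop_eq_bprod] at hK'
    exact ⟨_, extK_near hK' (mul_nonneg (pow_nonneg (zero_le_one.trans hhl) M)
      (pow_nonneg (zero_le_one.trans hk3) S)) hc hGR hRG⟩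

/-- No key for the filters of the class. -/
theorem near_filters {ρ : Matrix (A × B) (A × B) ℂ} {lo hi c α κ : ℝ} {N M S : ℕ}
    (htr : ρ.trace = 1) (hlo : 0 < lo) (h1 : (ρ - (lo : ℂ) • 1).PosSemidef)
    (h2 : ((hi : ℂ) • 1 - ρ).PosSemidef) (h12 : hi ≤ 2 * lo) (hN : hi ^ N ≤ 2 * lo ^ N)
    (hc : 0 < c) (hκ : 1 ≤ κ) (hα : S = 0 ∨ 8 * (hi / lo - 1) ≤ α)
    {b b' : Bool} {PA : Matrix A A ℂ → Matrix A A ℂ → Prop} {PB : Matrix B B ℂ → Matrix B B ℂ → Prop}
    (hPA : CompOn b (ρ.submatrix (Prod.swap : B × A → A × B) Prod.swap) PA) (hPB : CompOn b' ρ PB)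
    (Ψ : Matrix (A × B) E ℂ) (hΨ : Ψ * Ψᴴ = ρ) (n ℓ : ℕ) (T : Type)
    [Fintype T] (f : T → (Fin ℓ → Bool) → Matrix (Fin n → A) (Fin n → A) ℂ)
    (g : T → (Fin ℓ → Bool) → Matrix (Fin n → B) (Fin n → B) ℂ) (ε : ℝ)
    (hL : LOCC (Fin ℓ → Bool) (Fin n → A) (Fin n → B) T f g)
    (hprod : ∀ t, NearSubBlocks PA N M S α κ c (∑ k, f t k) ∨
      NearSubBlocks PB N M S α κ c (∑ k, g t k))
    (herr : KeyError f g (copies n Ψ) ε) :
    1 - ε ≤ c * (hi / lo) ^ M * (3 * κ ^ 2) ^ S * ((2 ^ ℓ)⁻¹ + ε) := by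
  have hne : Nonempty (A × B) := by
    by_contra hcon
    rw [not_nonempty_iff] at hcon
    rw [Matrix.trace, Finset.univ_eq_empty, Finset.sum_empty] at htr
    exact zero_ne_one htr
  have hlohi : lo ≤ hi := by
    obtain ⟨p⟩ := hne
    have h3 := (h1.add h2).diag_nonneg (i := p)
    have h4 : ((ρ - (lo : ℂ) • 1) + ((hi : ℂ) • 1 - ρ)) p p = ((hi - lo : ℝ) : ℂ) := by
      simp only [Matrix.add_apply, Matrix.sub_apply, Matrix.smul_apply, Matrix.one_apply_eq,
        smul_eq_mul]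
      push_cast
      ring
    rw [h4, Complex.zero_le_real] at h3
    linarith
  have hW : copies n Ψ * (copies n Ψ)ᴴ = cop (Fin n) ρ := by
    rw [copies_mul, hΨ]
    rfl
  have hlown := cop_low (Fin n) hlo.le h1
  have hunit : ∃ W', (copies n Ψ * (copies n Ψ)ᴴ) * W' = 1 := by
    rw [hW]
    have h3 : (cop (Fin n) ρ).PosDef := by
      have h4 : cop (Fin n) ρ = ((lo ^ Fintype.card (Fin n) : ℝ) : ℂ) •
          (1 : Matrix ((Fin n → A) × (Fin n → B)) ((Fin n → A) × (Fin n → B)) ℂ) +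
            (cop (Fin n) ρ - ((lo ^ Fintype.card (Fin n) : ℝ) : ℂ) • 1) := by abel
      rw [h4]
      exact (PosDef.one.smul (by exact_mod_cast pow_pos hlo _)).add_posSemidef hlown
    exact ⟨(cop (Fin n) ρ)⁻¹, Matrix.mul_nonsing_inv _
      ((Matrix.isUnit_iff_isUnit_det _).mp h3.isUnit)⟩
  obtain ⟨W', hW'⟩ := hunit
  obtain ⟨hf, hg⟩ := Lim.locc_psd hL
  -- exchange of the parties
  have hρ' : (ρ.submatrix (Prod.swap : B × A → A × B) Prod.swap - (lo : ℂ) • 1).PosSemidef := by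
    have h3 := h1.submatrix (Prod.swap : B × A → A × B)
    have h4 : (ρ - (lo : ℂ) • 1).submatrix (Prod.swap : B × A → A × B) Prod.swap =
        ρ.submatrix Prod.swap Prod.swap - (lo : ℂ) • 1 := by
      ext p q
      simp only [submatrix_apply, Matrix.sub_apply, Matrix.smul_apply, Matrix.one_apply,
        Prod.swap_injective.eq_iff]
    rwa [h4] at h3
  have hρ'' : ((hi : ℂ) • 1 - ρ.submatrix (Prod.swap : B × A → A × B)
      Prod.swap).PosSemidef := by
    have h3 := h2.submatrix (Prod.swap : B × A → A × B)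
    have h4 : ((hi : ℂ) • 1 - ρ).submatrix (Prod.swap : B × A → A × B) Prod.swap =
        (hi : ℂ) • 1 - ρ.submatrix Prod.swap Prod.swap := by
      ext p q
      simp only [submatrix_apply, Matrix.sub_apply, Matrix.smul_apply, Matrix.one_apply,
        Prod.swap_injective.eq_iff]
    rwa [h4] at h3
  have hhl : 0 ≤ hi / lo := div_nonneg (hlo.trans_le hlohi).le hlo.le
  have hκ0 : 0 ≤ c * ((hi / lo) ^ M * (3 * κ ^ 2) ^ S) :=
    mul_nonneg hc.le (mul_nonneg (pow_nonneg hhl M) (pow_nonneg (by positivity) S))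
  have hkey := key_bound (copies n Ψ) hW' f g hf hg hκ0 (fun t => ?_) herr
  · have hcard : (Fintype.card (Fin ℓ → Bool) : ℝ) = 2 ^ ℓ := by simp
    rw [hcard] at hkey
    rwa [mul_assoc c]
  · rcases hprod t with h | h
    · left
      rcases ext_near hlo hlohi hc hρ' hρ'' h12 hN hκ hα hPA (posSemidef_sum _ fun k _ => hf t k) h
        with h0 | h0
      · exact Or.inl h0
      · right
        rw [hW]
        exact h0
    · right
      rw [hW]
      exact ext_near hlo hlohi hc h1 h2 h12 hN hκ hα hPB (posSemidef_sum _ fun k _ => hg t k) h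

end StabG

end Vale.Agent.P372
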