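import Vale.Agent.P372.StabG.Site
import Vale.Agent.P372.StabF.Swap

open Matrix Kronecker
open scoped ComplexOrder MatrixOrder

set_option linter.unusedSectionVars false

namespace Vale.Agent.P372

namespace StabG

open BF (cop)
open StabF

variable {A C : Type} [Fintype A] [DecidableEq A] [Fintype C] [DecidableEq C]

theorem commute_kr {M M' : Matrix (A × A) (A × A) ℂ} {N N' : Matrix (C × C) (C × C) ℂ}
    (h : Commute M M') (h' : Commute N N') : Commute (kr M N) (kr M' N') := by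
  show _ * _ = _ * _
  rw [kr_mul, kr_mul, h.eq, h'.eq]

theorem ft_kr (a : Matrix A A ℂ) (b : Matrix C C ℂ) (M : Matrix (A × A) (A × A) ℂ)
    (N : Matrix (C × C) (C × C) ℂ) : ft (a ⊗ₖ b) (kr M N) = kr (ft a M) (ft b N) := by
  have e1 : ((1 : Matrix (A × C) (A × C) ℂ) ⊗ₖ (a ⊗ₖ b)) = kr (1 ⊗ₖ a) (1 ⊗ₖ b) := by
    rw [← one_kronecker_one (m := A) (n := C), kr_kron]
  have e2 : ((1 : Matrix (A × C) (A × C) ℂ) ⊗ₖ (a ⊗ₖ b))ᴴ = kr ((1 ⊗ₖ a)ᴴ) ((1 ⊗ₖ b)ᴴ) := by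
    rw [conjTranspose_kronecker, conjTranspose_one, conjTranspose_kronecker,
      ← one_kronecker_one (m := A) (n := C), kr_kron, conjTranspose_kronecker,
      conjTranspose_kronecker, conjTranspose_one, conjTranspose_one]
  rw [ft_eq, e2, e1, kr_mul, kr_mul, ft_eq, ft_eq]

/-- The two kinds of contractions commute with the filtered swap. -/
theorem comm_site {a v : Matrix A A ℂ} (h : ScalarOrTracelessOn a v) (c : Matrix A A ℂ)
    (hc : c = v.trace • 1 ∨ c = v) :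
    Commute (c ⊗ₖ v) (ft a (1 : Matrix (A × A) (A × A) ℂ)) ∧
      Commute (c ⊗ₖ v) (ft a (sw A)) := by
  obtain ⟨h1, h2, h3, h4, h5⟩ := h
  have hva : v * a = v := mul_proj h1 h2 h3
  have hav : a * v = v := proj_mul h1 h2 h4
  refine ⟨commute_one_proj true h1 h2 h3 h4 c, ?_⟩
  have e0 : ft a (sw A) = ((1 : Matrix A A ℂ) ⊗ₖ a) * sw A * ((1 : Matrix A A ℂ) ⊗ₖ a) := by
    rw [ft_eq, conjTranspose_kronecker, conjTranspose_one, h1]
  rw [e0]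
  rcases hc with rfl | rfl
  · rcases h5 with h6 | ⟨x, h6⟩
    · rw [h6, zero_smul, zero_kronecker]
      exact Commute.zero_left _
    · obtain ⟨t, ht⟩ : ∃ t, t = v.trace := ⟨_, rfl⟩
      rw [← ht]
      have e1 : ((t • (1 : Matrix A A ℂ)) ⊗ₖ v) = (t * x) • ((1 : Matrix A A ℂ) ⊗ₖ a) := by
        rw [smul_kronecker, h6, kronecker_smul, smul_smul]
      have e2 : ((1 : Matrix A A ℂ) ⊗ₖ a) * ((1 : Matrix A A ℂ) ⊗ₖ a) = 1 ⊗ₖ a := by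
        rw [← mul_kronecker_mul, Matrix.one_mul, h2]
      rw [e1]
      refine Commute.smul_left ?_ _
      show _ * _ = _ * _
      calc ((1 : Matrix A A ℂ) ⊗ₖ a) * (((1 : Matrix A A ℂ) ⊗ₖ a) * sw A *
            ((1 : Matrix A A ℂ) ⊗ₖ a))
          = (((1 : Matrix A A ℂ) ⊗ₖ a) * ((1 : Matrix A A ℂ) ⊗ₖ a)) * sw A *
            ((1 : Matrix A A ℂ) ⊗ₖ a) := by simp only [Matrix.mul_assoc]
        _ = ((1 : Matrix A A ℂ) ⊗ₖ a) * sw A * ((1 : Matrix A A ℂ) ⊗ₖ a) := by rw [e2]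
        _ = ((1 : Matrix A A ℂ) ⊗ₖ a) * sw A * (((1 : Matrix A A ℂ) ⊗ₖ a) *
            ((1 : Matrix A A ℂ) ⊗ₖ a)) := by rw [e2]
        _ = _ := by simp only [Matrix.mul_assoc]
  · have e1 : (c ⊗ₖ c) * ((1 : Matrix A A ℂ) ⊗ₖ a) = c ⊗ₖ c := by
      rw [← mul_kronecker_mul, Matrix.mul_one, hva]
    have e2 : ((1 : Matrix A A ℂ) ⊗ₖ a) * (c ⊗ₖ c) = c ⊗ₖ c := by
      rw [← mul_kronecker_mul, Matrix.one_mul, hav]
    show _ * _ = _ * _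
    calc (c ⊗ₖ c) * (((1 : Matrix A A ℂ) ⊗ₖ a) * sw A * ((1 : Matrix A A ℂ) ⊗ₖ a))
        = ((c ⊗ₖ c) * ((1 : Matrix A A ℂ) ⊗ₖ a)) * sw A * ((1 : Matrix A A ℂ) ⊗ₖ a) := by
          simp only [Matrix.mul_assoc]
      _ = sw A * (c ⊗ₖ c) * ((1 : Matrix A A ℂ) ⊗ₖ a) := by rw [e1, (sw_comm c).eq]
      _ = sw A * (c ⊗ₖ c) := by rw [Matrix.mul_assoc, e1]
      _ = (((1 : Matrix A A ℂ) ⊗ₖ a) * (c ⊗ₖ c)) * sw A := by rw [e2, (sw_comm c).eq]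
      _ = ((1 : Matrix A A ℂ) ⊗ₖ a) * (sw A * (((1 : Matrix A A ℂ) ⊗ₖ a) * (c ⊗ₖ c))) := by
          rw [Matrix.mul_assoc, (sw_comm c).eq, e2]
      _ = _ := by simp only [Matrix.mul_assoc]

theorem swapComb_eq (s : Fin 4 → ℂ) : (swapComb s : Matrix ((A × C) × (A × C)) _ ℂ) =
    sw4 A C s := by
  ext p q
  simp only [swapComb, sw4, Matrix.add_apply, Matrix.smul_apply, smul_eq_mul, kr, sw,
    Matrix.one_apply, Prod.mk.injEq]

theorem comm_sw4 {a v : Matrix A A ℂ} {b w : Matrix C C ℂ} (hv : ScalarOrTracelessOn a v)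
    (hw : ScalarOrTracelessOn b w) (s : Fin 4 → ℂ) (c : Matrix A A ℂ) (c' : Matrix C C ℂ)
    (hc : c = v.trace • 1 ∨ c = v) (hc' : c' = w.trace • 1 ∨ c' = w) :
    Commute ((c ⊗ₖ c') ⊗ₖ (v ⊗ₖ w)) (ft (a ⊗ₖ b) (sw4 A C s)) := by
  obtain ⟨h1, h2⟩ := comm_site hv c hc
  obtain ⟨h3, h4⟩ := comm_site hw c' hc'
  rw [kr_kron, sw4, ft_add, ft_add, ft_add, ft_smul, ft_smul, ft_smul, ft_smul, ft_kr, ft_kr,
    ft_kr, ft_kr]
  exact ((((commute_kr h1 h3).smul_right _).add_right ((commute_kr h2 h3).smul_right _)).add_right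
    ((commute_kr h1 h4).smul_right _)).add_right ((commute_kr h2 h4).smul_right _)

theorem sot_kron {a v : Matrix A A ℂ} {b w : Matrix C C ℂ} (hv : ScalarOrTracelessOn a v)
    (hw : ScalarOrTracelessOn b w) : (a ⊗ₖ b)ᴴ = a ⊗ₖ b ∧ (a ⊗ₖ b) * (a ⊗ₖ b) = a ⊗ₖ b ∧
      (v ⊗ₖ w)ᴴ * (v ⊗ₖ w) = a ⊗ₖ b ∧ (v ⊗ₖ w) * (v ⊗ₖ w)ᴴ = a ⊗ₖ b := by
  obtain ⟨h1, h2, h3, h4, -⟩ := hv
  obtain ⟨k1, k2, k3, k4, -⟩ := hw
  refine ⟨?_, ?_, ?_, ?_⟩
  · rw [conjTranspose_kronecker, h1, k1]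
  · rw [← mul_kronecker_mul, h2, k2]
  · rw [conjTranspose_kronecker, ← mul_kronecker_mul, h3, k3]
  · rw [conjTranspose_kronecker, ← mul_kronecker_mul, h4, k4]

theorem comm_comb {X Y : Type} [Fintype X] [DecidableEq X] [Fintype Y] [DecidableEq Y]
    {U : Matrix Y Y ℂ} {F : Matrix (X × Y) (X × Y) ℂ} (s : Fin 4 → ℂ) {X0 X1 X2 X3 : Matrix X X ℂ}
    (h0 : Commute (X0 ⊗ₖ U) F) (h1 : Commute (X1 ⊗ₖ U) F) (h2 : Commute (X2 ⊗ₖ U) F)
    (h3 : Commute (X3 ⊗ₖ U) F) :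
    Commute ((s 0 • X0 + s 1 • X1 + s 2 • X2 + s 3 • X3) ⊗ₖ U) F := by
  rw [add_kronecker, add_kronecker, add_kronecker, smul_kronecker, smul_kronecker,
    smul_kronecker, smul_kronecker]
  exact (((h0.smul_left _).add_left (h1.smul_left _)).add_left (h2.smul_left _)).add_left
    (h3.smul_left _)

/-- The operators on product subspaces, for combinations of swaps. -/
theorem swapComb_compOn (s : Fin 4 → ℂ) :
    CompOn true (swapComb s : Matrix ((A × C) × (A × C)) _ ℂ) LocalPairOn := by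
  rintro p u ⟨a, v, b, w, hv, hw, rfl, rfl⟩
  obtain ⟨h1, h2, h3, h4⟩ := sot_kron hv hw
  rw [swapComb_eq]
  refine ⟨h1, h2, h3, h4, ?_, ?_⟩
  · have e : BF.ctr (sw4 A C s) (v ⊗ₖ w) = s 0 • ((v.trace • 1) ⊗ₖ (w.trace • 1)) +
        s 1 • (v ⊗ₖ (w.trace • 1)) + s 2 • ((v.trace • 1) ⊗ₖ w) + s 3 • (v ⊗ₖ w) := by
      rw [sw4, StabF.ctr_add_left, StabF.ctr_add_left, StabF.ctr_add_left, StabF.ctr_smul_left,
        StabF.ctr_smul_left, StabF.ctr_smul_left, StabF.ctr_smul_left, ctr_kr, ctr_kr, ctr_kr,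
        ctr_kr, ctr_sw, ctr_sw, StabF.ctr_one, StabF.ctr_one]
    rw [e]
    exact comm_comb s (comm_sw4 hv hw s _ _ (Or.inl rfl) (Or.inl rfl))
      (comm_sw4 hv hw s _ _ (Or.inr rfl) (Or.inl rfl))
      (comm_sw4 hv hw s _ _ (Or.inl rfl) (Or.inr rfl))
      (comm_sw4 hv hw s _ _ (Or.inr rfl) (Or.inr rfl))
  · have e : ((v ⊗ₖ w).trace • (1 : Matrix (A × C) (A × C) ℂ)) =
        (v.trace • (1 : Matrix A A ℂ)) ⊗ₖ (w.trace • (1 : Matrix C C ℂ)) := by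
      rw [trace_kronecker, smul_kronecker, kronecker_smul, smul_smul, one_kronecker_one]
    rw [e]
    exact comm_sw4 hv hw s _ _ (Or.inl rfl) (Or.inl rfl)

end StabG

end Vale.Agent.P372
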