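import Vale.Agent.P372.StabG.Defs
import Vale.Agent.P372.StabF.KPpt

open Matrix Kronecker
open scoped ComplexOrder MatrixOrder

set_option linter.unusedSectionVars false

namespace Vale.Agent.P372

namespace StabG

open BF (cop)
open StabF

variable {A B X Y D Z : Type} [Fintype A] [DecidableEq A] [Fintype B] [DecidableEq B]
  [Fintype X] [DecidableEq X] [Fintype Y] [DecidableEq Y] [Fintype D] [DecidableEq D]
  [Fintype Z] [DecidableEq Z]

/-- The operators `u` that are unitary on the range of `p` have good contractions. -/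
def CompOn (b : Bool) (ρ : Matrix (A × B) (A × B) ℂ) (P : Matrix B B ℂ → Matrix B B ℂ → Prop) :
    Prop :=
  ∀ p u, P p u → pᴴ = p ∧ p * p = p ∧ uᴴ * u = p ∧ u * uᴴ = p ∧
    Commute (BF.ctr ρ u ⊗ₖ H795.tw b u) (ft p ρ) ∧
    Commute ((u.trace • (1 : Matrix A A ℂ)) ⊗ₖ H795.tw b u) (ft p ρ)

/-- A unitary on the range of `p`. -/
theorem mul_proj {p u : Matrix Z Z ℂ} (h1 : pᴴ = p) (h2 : p * p = p) (h3 : uᴴ * u = p) :
    u * p = u := by
  have h4 : (u * (1 - p))ᴴ * (u * (1 - p)) = 0 := by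
    rw [conjTranspose_mul, conjTranspose_sub, conjTranspose_one, h1, Matrix.mul_assoc,
      ← Matrix.mul_assoc uᴴ, h3, Matrix.mul_sub, Matrix.mul_one, h2, sub_self, Matrix.mul_zero]
  have h5 := conjTranspose_mul_self_eq_zero.mp h4
  rw [Matrix.mul_sub, Matrix.mul_one, sub_eq_zero] at h5
  exact h5.symm

theorem proj_mul {p u : Matrix Z Z ℂ} (h1 : pᴴ = p) (h2 : p * p = p) (h3 : u * uᴴ = p) :
    p * u = u := by
  have h4 := mul_proj (u := uᴴ) h1 h2 (by rw [conjTranspose_conjTranspose, h3])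
  have h5 := congrArg conjTranspose h4
  rwa [conjTranspose_mul, conjTranspose_conjTranspose, h1] at h5

theorem tw_mul_proj {p u : Matrix Z Z ℂ} (b : Bool) (h1 : pᴴ = p) (h2 : p * p = p)
    (h3 : uᴴ * u = p) (h4 : u * uᴴ = p) : H795.tw b u * p = H795.tw b u := by
  cases b
  · exact mul_proj (u := uᴴ) h1 h2 (by rw [conjTranspose_conjTranspose, h4])
  · exact mul_proj h1 h2 h3

theorem proj_mul_tw {p u : Matrix Z Z ℂ} (b : Bool) (h1 : pᴴ = p) (h2 : p * p = p)
    (h3 : uᴴ * u = p) (h4 : u * uᴴ = p) : p * H795.tw b u = H795.tw b u := by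
  cases b
  · exact proj_mul (u := uᴴ) h1 h2 (by rw [conjTranspose_conjTranspose, h3])
  · exact proj_mul h1 h2 h4

theorem ft_add (V : Matrix D Y ℂ) (M N : Matrix (X × Y) (X × Y) ℂ) :
    ft V (M + N) = ft V M + ft V N := by
  rw [ft_eq, ft_eq, ft_eq, Matrix.mul_add, Matrix.add_mul]

theorem ft_sub (V : Matrix D Y ℂ) (M N : Matrix (X × Y) (X × Y) ℂ) :
    ft V (M - N) = ft V M - ft V N := by
  rw [ft_eq, ft_eq, ft_eq, Matrix.mul_sub, Matrix.sub_mul]

theorem ft_smul (V : Matrix D Y ℂ) (x : ℂ) (M : Matrix (X × Y) (X × Y) ℂ) :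
    ft V (x • M) = x • ft V M := by
  rw [ft_eq, ft_eq, Matrix.mul_smul, Matrix.smul_mul]

theorem ft_one_proj {p : Matrix Y Y ℂ} (h1 : pᴴ = p) (h2 : p * p = p) :
    ft p (1 : Matrix (X × Y) (X × Y) ℂ) = (1 : Matrix X X ℂ) ⊗ₖ p := by
  rw [ft_eq, Matrix.mul_one, conjTranspose_kronecker, conjTranspose_one, h1, ← mul_kronecker_mul,
    Matrix.one_mul, h2]

theorem ft_ft (V : Matrix D Y ℂ) (W : Matrix Y Z ℂ) (M : Matrix (X × Z) (X × Z) ℂ) :
    ft V (ft W M) = ft (V * W) M := by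
  rw [ft_eq, ft_eq, ft_eq, conjTranspose_kronecker, conjTranspose_kronecker,
    conjTranspose_kronecker, conjTranspose_one, conjTranspose_mul]
  have e : ((1 : Matrix X X ℂ) ⊗ₖ (V * W)) = ((1 : Matrix X X ℂ) ⊗ₖ V) * ((1 : Matrix X X ℂ) ⊗ₖ W) := by
    rw [← mul_kronecker_mul, Matrix.one_mul]
  have e' : ((1 : Matrix X X ℂ) ⊗ₖ (Wᴴ * Vᴴ)) =
      ((1 : Matrix X X ℂ) ⊗ₖ Wᴴ) * ((1 : Matrix X X ℂ) ⊗ₖ Vᴴ) := by
    rw [← mul_kronecker_mul, Matrix.one_mul]
  rw [e, e']
  simp only [Matrix.mul_assoc]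

/-- Commutation with the multiples of the identity. -/
theorem commute_one_proj {p u : Matrix B B ℂ} (b : Bool) (h1 : pᴴ = p) (h2 : p * p = p)
    (h3 : uᴴ * u = p) (h4 : u * uᴴ = p) (C : Matrix A A ℂ) :
    Commute (C ⊗ₖ H795.tw b u) (ft p (1 : Matrix (A × B) (A × B) ℂ)) := by
  show _ * _ = _ * _
  rw [ft_one_proj h1 h2, ← mul_kronecker_mul, ← mul_kronecker_mul, tw_mul_proj b h1 h2 h3 h4,
    proj_mul_tw b h1 h2 h3 h4, Matrix.mul_one, Matrix.one_mul]

theorem ctr_sub_smul_one (ρ : Matrix (A × B) (A × B) ℂ) (x : ℂ) (u : Matrix B B ℂ) :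
    BF.ctr (ρ - x • 1) u = BF.ctr ρ u - x • u.trace • (1 : Matrix A A ℂ) := by
  rw [← H795.ctr_one' (A := A) u]
  ext a a'
  simp only [BF.ctr, Matrix.sub_apply, Matrix.smul_apply, smul_eq_mul, Finset.mul_sum, sub_mul,
    Finset.sum_sub_distrib, mul_assoc]

theorem CompOn.shift {b : Bool} {ρ : Matrix (A × B) (A × B) ℂ}
    {P : Matrix B B ℂ → Matrix B B ℂ → Prop} (h : CompOn b ρ P) (x : ℂ) :
    CompOn b (ρ - x • 1) P := by
  intro p u hu
  obtain ⟨h1, h2, h3, h4, h5, h6⟩ := h p u hu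
  have h7 : ∀ C : Matrix A A ℂ, Commute (C ⊗ₖ H795.tw b u) (ft p ρ) →
      Commute (C ⊗ₖ H795.tw b u) (ft p (ρ - x • 1)) := by
    intro C hC
    rw [ft_sub, ft_smul]
    exact hC.sub_right ((commute_one_proj b h1 h2 h3 h4 C).smul_right x)
  refine ⟨h1, h2, h3, h4, ?_, h7 _ h6⟩
  rw [ctr_sub_smul_one]
  have e : ((BF.ctr ρ u - x • u.trace • (1 : Matrix A A ℂ)) ⊗ₖ H795.tw b u) =
      BF.ctr ρ u ⊗ₖ H795.tw b u - x • ((u.trace • (1 : Matrix A A ℂ)) ⊗ₖ H795.tw b u) := by
    rw [kron_sub_left', smul_kronecker]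
  rw [e]
  exact (h7 _ h5).sub_left ((h7 _ h6).smul_left x)

/-- Unitaries on a subspace that act as scalars on the range of a projection. -/
theorem scalar_on {Q h p : Matrix Z Z ℂ} (h1 : Qᴴ = Q) (h2 : Q * Q = Q) (hu : hᴴ * h = p)
    (hp : p * Q = Q) {χ : ℂ} (hχ : h * Q = χ • Q) (b : Bool) :
    Q = 0 ∨ ∃ x : ℂ, x ≠ 0 ∧ H795.tw b h * Q = x • Q ∧ Q * H795.tw b h = x • Q := by
  by_cases h0 : Q = 0
  · exact Or.inl h0
  right
  have hpQ : pᴴ = p := by
    rw [← hu, conjTranspose_mul, conjTranspose_conjTranspose]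
  have hp' : Q * p = Q := by
    have := congrArg conjTranspose hp
    rwa [conjTranspose_mul, h1, hpQ] at this
  have hχ' : Q * hᴴ = star χ • Q := by
    have := congrArg conjTranspose hχ
    rwa [conjTranspose_mul, h1, conjTranspose_smul, h1] at this
  have hχχ : (star χ * χ) • Q = Q := by
    calc (star χ * χ) • Q = (star χ • Q) * (χ • Q) := by
          rw [Matrix.smul_mul, Matrix.mul_smul, h2, smul_smul]
      _ = Q * hᴴ * (h * Q) := by rw [hχ, hχ']
      _ = Q * (hᴴ * h) * Q := by simp only [Matrix.mul_assoc]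
      _ = _ := by rw [hu, hp', h2]
  have hne : star χ * χ ≠ 0 := by
    intro h3
    rw [h3, zero_smul] at hχχ
    exact h0 hχχ.symm
  have hc : χ ≠ 0 := right_ne_zero_of_mul hne
  have hc' : star χ ≠ 0 := left_ne_zero_of_mul hne
  have h6 : Q * h = χ • Q := by
    have h8 : star χ • (Q * h) = Q := by
      rw [← Matrix.smul_mul, ← hχ', Matrix.mul_assoc, hu, hp']
    calc Q * h = (star χ * χ) • (Q * h) := by
          rw [← Matrix.smul_mul, hχχ]
      _ = χ • (star χ • (Q * h)) := by rw [smul_smul, mul_comm]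
      _ = _ := by rw [h8]
  have h7 : hᴴ * Q = star χ • Q := by
    have := congrArg conjTranspose h6
    rwa [conjTranspose_mul, h1, conjTranspose_smul, h1] at this
  cases b
  · exact ⟨star χ, hc', h7, hχ'⟩
  · exact ⟨χ, hc, hχ, h6⟩

theorem ft_tens_flag {ι : Type} [Fintype ι] [DecidableEq ι] (p : ι → Matrix B B ℂ)
    (S : Matrix (A × B) (A × B) ℂ) (α : ℝ) (τ : ι → Bool) :
    ft (tens p) (flag S α τ) = sp fun i => ft (p i) (if τ i then S else (α : ℂ) • 1) := by
  have e1 : ((1 : Matrix (ι → A) (ι → A) ℂ) ⊗ₖ tens p) =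
      sp fun i => (1 : Matrix A A ℂ) ⊗ₖ p i := by
    rw [← tens_one, tens_kron]
  have e2 : ((1 : Matrix (ι → A) (ι → A) ℂ) ⊗ₖ tens p)ᴴ =
      sp fun i => ((1 : Matrix A A ℂ) ⊗ₖ p i)ᴴ := by
    rw [conjTranspose_kronecker, conjTranspose_one, tens_conjTranspose, ← tens_one, tens_kron]
    congr 1
    funext i
    rw [conjTranspose_kronecker, conjTranspose_one]
  rw [ft_eq, e2, e1, flag_eq, sp_mul, sp_mul]
  congr 1
  funext i
  rw [ft_eq]

/-- The commutation hypothesis of `exists_ext` for codes on subspaces. -/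
theorem sub_comm {ι : Type} [Fintype ι] [DecidableEq ι] {S : Matrix (A × B) (A × B) ℂ} {α : ℝ}
    {P : Matrix B B ℂ → Matrix B B ℂ → Prop} {b : Bool} (hP : CompOn b S P)
    {Q : Matrix (ι → B) (ι → B) ℂ} (hQ : SubCodeProj P Q) (σ τ : ι → Bool) (d d' : ι → B) :
    Commute (StabF.ptr (ft Q (flag S α σ))) (blk (ft Q (flag S α τ)) d d') := by
  obtain ⟨h1, h2, p, h3⟩ := hQ
  rcases eq_or_ne Q 0 with h0 | h0
  · have e0 : ∀ M : Matrix ((ι → A) × (ι → B)) ((ι → A) × (ι → B)) ℂ, ft Q M = 0 := by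
      intro M
      rw [h0, ft_eq, kronecker_zero, Matrix.zero_mul, Matrix.zero_mul]
    rw [e0 (flag S α τ)]
    have e1 : blk (0 : Matrix ((ι → A) × (ι → B)) ((ι → A) × (ι → B)) ℂ) d d' = 0 := rfl
    rw [e1]
    exact Commute.zero_right _
  -- the range of `Q` lies in the range of the product of the projections
  have hpQ : tens p * Q = Q := by
    refine Submodule.span_induction (p := fun Z _ => tens p * Z = Z) ?_ ?_ ?_ ?_ h3
    · rintro h ⟨u, hu, hh, χ, hχ⟩
      have e : h = tens u := by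
        ext x y
        exact hh x y
      rw [e, tens_mul]
      congr 1
      funext i
      obtain ⟨g1, g2, g3, g4, -⟩ := hP _ _ (hu i)
      exact proj_mul g1 g2 g4
    · exact Matrix.mul_zero _
    · intro x y _ _ hx hy
      rw [Matrix.mul_add, hx, hy]
    · intro c x _ hx
      rw [Matrix.mul_smul, hx]
  have hQp : Q * tens p = Q := by
    refine Submodule.span_induction (p := fun Z _ => Z * tens p = Z) ?_ ?_ ?_ ?_ h3
    · rintro h ⟨u, hu, hh, χ, hχ⟩
      have e : h = tens u := by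
        ext x y
        exact hh x y
      rw [e, tens_mul]
      congr 1
      funext i
      obtain ⟨g1, g2, g3, g4, -⟩ := hP _ _ (hu i)
      exact mul_proj g1 g2 g3
    · exact Matrix.zero_mul _
    · intro x y _ _ hx hy
      rw [Matrix.add_mul, hx, hy]
    · intro c x _ hx
      rw [Matrix.smul_mul, hx]
  have hft : ft Q (flag S α τ) = ft Q (ft (tens p) (flag S α τ)) := by
    rw [ft_ft, hQp]
  rw [ptr_ft, h1, h2, hft]
  refine Submodule.span_induction (p := fun Z _ => Commute (BF.ctr (flag S α σ) Z)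
    (blk (ft Q (ft (tens p) (flag S α τ))) d d')) ?_ ?_ ?_ ?_ h3
  · rintro h ⟨u, hu, hh, χ, hχ⟩
    have e : h = tens u := by
      ext x y
      exact hh x y
    rw [e] at hχ ⊢
    choose g1 g2 g3 g4 g5 g6 using fun i => hP _ _ (hu i)
    obtain ⟨C, hC⟩ : ∃ C : ι → Matrix A A ℂ,
        C = fun i => BF.ctr (if σ i = true then S else (α : ℂ) • 1) (u i) := ⟨_, rfl⟩
    have e1 : BF.ctr (flag S α σ) (tens u) = tens C := by
      rw [flag_eq, ctr_sp, hC]
    have hsite : ∀ i, Commute (C i ⊗ₖ H795.tw b (u i))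
        (ft (p i) (if τ i then S else (α : ℂ) • 1)) := by
      intro i
      have k1 : ∀ c : Matrix A A ℂ, Commute (c ⊗ₖ H795.tw b (u i))
          (ft (p i) ((α : ℂ) • (1 : Matrix (A × B) (A × B) ℂ))) := by
        intro c
        rw [ft_smul]
        exact (commute_one_proj b (g1 i) (g2 i) (g3 i) (g4 i) c).smul_right _
      have k2 : C i = BF.ctr S (u i) ∨ C i = (α : ℂ) • (u i).trace • (1 : Matrix A A ℂ) := by
        rw [hC]
        by_cases hσ : σ i = true
        · left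
          simp only [if_pos hσ]
        · right
          simp only [if_neg hσ]
          rw [← H795.ctr_one' (A := A) (u i)]
          ext x x'
          simp only [BF.ctr, Matrix.smul_apply, smul_eq_mul, Finset.mul_sum, mul_assoc]
      split_ifs
      · rcases k2 with k3 | k3
        · rw [k3]
          exact g5 i
        · rw [k3, smul_kronecker]
          exact (g6 i).smul_left _
      · exact k1 _
    have hM : Commute (tens C ⊗ₖ tens fun i => H795.tw b (u i))
        (ft (tens p) (flag S α τ)) := by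
      rw [ft_tens_flag, tens_kron]
      show _ * _ = _ * _
      rw [sp_mul, sp_mul]
      congr 1
      funext i
      exact hsite i
    have hunit : (tens u)ᴴ * tens u = tens p := by
      rw [tens_conjTranspose, tens_mul]
      congr 1
      funext i
      exact g3 i
    rw [e1]
    rcases scalar_on h1 h2 hunit hpQ hχ b with h4 | ⟨x, hx, hx1, hx2⟩
    · exact absurd h4 h0
    · rw [tw_tens] at hx1 hx2
      have h4 := commute_local h1 hx hx1 hx2 hM
      have h5 : blk ((tens C ⊗ₖ (1 : Matrix (ι → B) (ι → B) ℂ)) *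
          ft Q (ft (tens p) (flag S α τ))) d d' =
          blk (ft Q (ft (tens p) (flag S α τ)) *
          (tens C ⊗ₖ (1 : Matrix (ι → B) (ι → B) ℂ))) d d' := by
        rw [h4.eq]
      rw [blk_mul_left, blk_mul_right] at h5
      exact h5
  · have e0 : BF.ctr (flag S α σ) 0 = 0 := by
      ext x x'
      simp [BF.ctr]
    rw [e0]
    exact Commute.zero_left _
  · intro x y _ _ hx hy
    rw [ctr_add_right]
    exact hx.add_left hy
  · intro c x _ hx
    rw [ctr_smul_right]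
    exact hx.smul_left c

/-- The operators with partners, on the whole space. -/
theorem compOn_of_comp {b : Bool} {ρ : Matrix (A × B) (A × B) ℂ} {P : Matrix B B ℂ → Prop}
    (h : H795.Comp b ρ P) : CompOn b ρ fun p u => p = 1 ∧ P u := by
  rintro p u ⟨rfl, hu⟩
  obtain ⟨h1, u', ⟨r, hr⟩, ⟨s, hs⟩, h4⟩ := h u hu
  refine ⟨conjTranspose_one, Matrix.one_mul 1, h1, mul_eq_one_comm.mp h1, ?_, ?_⟩
  · rw [ft_one, hs, smul_kronecker]
    exact h4.smul_left s
  · rw [ft_one, hr, smul_kronecker]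
    exact h4.smul_left r

end StabG

end Vale.Agent.P372
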